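import Crest.Agent.R330.IB0

/-! # Row 330, BM/A: tools for the weighted integrals `PI`; homogeneous functions -/

set_option autoImplicit false
set_option linter.unusedSectionVars false

noncomputable section

open MeasureTheory Filter Topology
open scoped InnerProductSpace ContDiff Matrix
open Crest.MathPhysics.MatrixQM (GammaNine)

namespace Crest.Agent.R330

/-- Gradient bound for a function homogeneous of degree `-2`. -/
theorem bm_fderiv_bound_of_homog {V : Type} [NormedAddCommGroup V] [NormedSpace ℝ V]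
    [FiniteDimensional ℝ V] {g : V → ℝ} (hg : ContDiffOn ℝ ∞ g {v | v ≠ 0})
    (hh : ∀ r : ℝ, 0 < r → ∀ v, g (r • v) = g v / r ^ 2) :
    ∃ A : ℝ, 0 ≤ A ∧ ∀ v, v ≠ 0 → ‖fderiv ℝ g v‖ ≤ A / ‖v‖ ^ 3 := by
  have hU : IsOpen {v : V | v ≠ 0} := isOpen_ne
  have hc : ContinuousOn (fderiv ℝ g) {v : V | v ≠ 0} :=
    hg.continuousOn_fderiv_of_isOpen hU (by simp)
  have hS : Metric.sphere (0 : V) 1 ⊆ {v : V | v ≠ 0} := by
    intro v hv h0
    rw [h0] at hv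
    simp at hv
  obtain ⟨A, hA⟩ := (isCompact_sphere (0 : V) 1).exists_bound_of_continuousOn (hc.mono hS)
  refine ⟨max A 0, le_max_right _ _, fun v hv => ?_⟩
  have hr : 0 < ‖v‖ := norm_pos_iff.mpr hv
  set r := ‖v‖ with hrdef
  set w : V := r⁻¹ • v with hw
  have hw1 : ‖w‖ = 1 := by
    rw [hw, norm_smul, Real.norm_eq_abs, abs_of_pos (inv_pos.mpr hr), ← hrdef,
      inv_mul_cancel₀ hr.ne']
  have hwS : w ∈ Metric.sphere (0 : V) 1 := by simpa using hw1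
  have hdw : DifferentiableAt ℝ g w :=
    (hg.contDiffAt (hU.mem_nhds (hS hwS))).differentiableAt (by simp)
  have hfun : g = fun y => (r ^ 2)⁻¹ * g (r⁻¹ • y) := by
    funext y
    have := hh r hr (r⁻¹ • y)
    rw [smul_smul, mul_inv_cancel₀ hr.ne', one_smul] at this
    rw [this, div_eq_inv_mul]
  have h1 : HasFDerivAt (fun y : V => r⁻¹ • y) (r⁻¹ • ContinuousLinearMap.id ℝ V) v :=
    (hasFDerivAt_id v).const_smul r⁻¹
  have h2 : HasFDerivAt (fun y : V => (r ^ 2)⁻¹ * g (r⁻¹ • y))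
      ((r ^ 2)⁻¹ • ((fderiv ℝ g w).comp (r⁻¹ • ContinuousLinearMap.id ℝ V))) v :=
    (HasFDerivAt.comp v (f := fun y : V => r⁻¹ • y) hdw.hasFDerivAt h1).const_mul _
  have h3 : fderiv ℝ g v =
      (r ^ 2)⁻¹ • ((fderiv ℝ g w).comp (r⁻¹ • ContinuousLinearMap.id ℝ V)) := by
    rw [← h2.fderiv, ← hfun]
  rw [h3, norm_smul, Real.norm_eq_abs, abs_of_pos (by positivity)]
  have h4 : ‖(fderiv ℝ g w).comp (r⁻¹ • ContinuousLinearMap.id ℝ V)‖ ≤ max A 0 * r⁻¹ := by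
    refine (ContinuousLinearMap.opNorm_comp_le _ _).trans ?_
    refine mul_le_mul ((hA w hwS).trans (le_max_left _ _)) ?_ (norm_nonneg _) (le_max_right _ _)
    rw [norm_smul, Real.norm_eq_abs, abs_of_pos (inv_pos.mpr hr)]
    exact mul_le_of_le_one_right (by positivity) ContinuousLinearMap.norm_id_le
  calc (r ^ 2)⁻¹ * ‖(fderiv ℝ g w).comp (r⁻¹ • ContinuousLinearMap.id ℝ V)‖
      ≤ (r ^ 2)⁻¹ * (max A 0 * r⁻¹) := by gcongr
    _ = max A 0 / r ^ 3 := by field_simp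

variable {E Z L H F : Type}
  [NormedAddCommGroup E] [InnerProductSpace ℝ E] [FiniteDimensional ℝ E]
  [NormedAddCommGroup Z] [InnerProductSpace ℝ Z] [FiniteDimensional ℝ Z]
  [NormedAddCommGroup L] [InnerProductSpace ℝ L] [FiniteDimensional ℝ L]
  [NormedAddCommGroup H] [InnerProductSpace ℝ H] [FiniteDimensional ℝ H]
  [NormedAddCommGroup F] [InnerProductSpace ℂ F] [FiniteDimensional ℂ F]
  [MeasurableSpace E] [BorelSpace E] [MeasurableSpace Z] [BorelSpace Z]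
  [MeasurableSpace L] [BorelSpace L] [MeasurableSpace H] [BorelSpace H]
  {P : Type} [Fintype P] {𝔤 : Lie E} (D : Levi 𝔤 Z L H P) (C : Cl (Th E) F) (σ : Spn)

namespace Levi

theorem bm_continuous_zc : Continuous D.zc := LinearMap.continuous_of_finiteDimensional _

theorem bm_continuous_lc : Continuous D.lc := LinearMap.continuous_of_finiteDimensional _

theorem bm_wtX_nonneg (x : X E) : 0 ≤ D.wtX x := D.wt_nonneg _ _

theorem bm_loc_empty {G : GammaNine} {𝒱 : Wts} {κ θ R : ℝ} {u : X E → F}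
    (hu : D.Loc C G 𝒱 κ θ R u) : D.Loc C G ∅ κ θ R u :=
  ⟨hu.1, fun x hx => ⟨(hu.2 x hx).1, (hu.2 x hx).2.1, fun _ hp => absurd hp (Set.notMem_empty _)⟩⟩

theorem bm_loc_mem {G : GammaNine} {𝒱 : Wts} {κ θ R : ℝ} {u : X E → F}
    (hu : D.Loc C G 𝒱 κ θ R u) {x : X E} (hΦ : ‖D.Phi (D.zc x) (D.yc x)‖ ^ 2 ≤ 1 / 2)
    (hx : x ∈ tsupport u) : x ∈ D.tube κ θ ∧ R ≤ ‖x‖ := by
  refine (hu.2 x ?_).1 hx
  nlinarith [norm_nonneg (D.Phi (D.zc x) (D.yc x))]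

theorem bm_Phi_le {x : X E} (hw : D.wtX x ≠ 0) : ‖D.Phi (D.zc x) (D.yc x)‖ ^ 2 ≤ 1 / 2 := by
  by_contra h
  exact hw (D.wt_eq_zero (le_of_lt (not_le.mp h)))

theorem bm_half_le {κ θ : ℝ} (hθ : θ ≤ 1 / 2) {x : X E} (hx : x ∈ D.tube κ θ) :
    ‖x‖ / 2 ≤ ‖D.zc x‖ := by
  have := D.tube_norm_zc hx
  nlinarith [norm_nonneg x]

theorem bm_zc_le_M {κ θ : ℝ} {x : X E} (hx : x ∈ D.tube κ θ) (p : P) :
    ‖D.zc x‖ ≤ κ * D.M p (D.zc x) := (D.norm_zc_le x).trans (hx.1 p)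

/-- Integrability of weighted densities. -/
theorem bm_integrable {G : GammaNine} {𝒱 : Wts} {κ θ R : ℝ} (hθ : θ ≤ 1 / 2) (hR : 0 < R)
    {u v : X E → F} (hu : D.Loc C G 𝒱 κ θ R u) (hv : Continuous v)
    (hs : ∀ x, v x ≠ 0 → x ∈ tsupport u) {g : X E → ℝ} (hg : ContinuousOn g {x | D.zc x ≠ 0}) :
    Integrable fun x => D.wtX x * (g x * ‖v x‖ ^ 2) := by
  set K : Set (X E) := tsupport u ∩ {x | ‖D.Phi (D.zc x) (D.yc x)‖ ^ 2 ≤ 1 / 2} with hK
  have hKc : IsCompact K :=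
    hu.1.2.isCompact.inter_right
      (isClosed_le (D.contDiff_PhiX.continuous.norm.pow 2) continuous_const)
  have hKs : K ⊆ {x | D.zc x ≠ 0} := by
    intro x hx h0
    obtain ⟨h1, h2⟩ := D.bm_loc_mem C hu hx.2 hx.1
    have h3 := D.bm_half_le hθ h1
    rw [h0, norm_zero] at h3
    linarith
  have hI : IntegrableOn (fun x => D.wtX x * (g x * ‖v x‖ ^ 2)) K :=
    ContinuousOn.integrableOn_compact hKc
      (D.continuous_wtX.continuousOn.mul ((hg.mono hKs).mul (hv.norm.pow 2).continuousOn))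
  refine hI.integrable_of_forall_notMem_eq_zero fun x hx => ?_
  by_cases hw : D.wtX x = 0
  · rw [hw, zero_mul]
  by_cases hvx : v x = 0
  · rw [hvx]; simp
  exact absurd ⟨hs x hvx, D.bm_Phi_le hw⟩ hx

theorem bm_PI_nonneg {G : GammaNine} {𝒱 : Wts} {κ θ R : ℝ}
    {u v : X E → F} (hu : D.Loc C G 𝒱 κ θ R u)
    (hs : ∀ x, v x ≠ 0 → x ∈ tsupport u) {g : X E → ℝ}
    (h0 : ∀ x ∈ D.tube κ θ, R ≤ ‖x‖ → 0 ≤ g x) : 0 ≤ D.PI fun x => g x * ‖v x‖ ^ 2 := by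
  refine integral_nonneg fun x => ?_
  by_cases hw : D.wtX x = 0
  · simp [hw]
  by_cases hvx : v x = 0
  · simp [hvx]
  obtain ⟨h1, h2⟩ := D.bm_loc_mem C hu (D.bm_Phi_le hw) (hs x hvx)
  exact mul_nonneg (D.bm_wtX_nonneg x) (mul_nonneg (h0 x h1 h2) (by positivity))

/-- Monotonicity of `PI` in the weight. -/
theorem bm_PI_mono {G : GammaNine} {𝒱 : Wts} {κ θ R : ℝ} (hθ : θ ≤ 1 / 2) (hR : 0 < R)
    {u v : X E → F} (hu : D.Loc C G 𝒱 κ θ R u) (hv : Continuous v)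
    (hs : ∀ x, v x ≠ 0 → x ∈ tsupport u) {g₁ g₂ : X E → ℝ}
    (hg : ContinuousOn g₂ {x | D.zc x ≠ 0}) {a : ℝ}
    (h0 : ∀ x ∈ D.tube κ θ, R ≤ ‖x‖ → 0 ≤ g₁ x)
    (h12 : ∀ x ∈ D.tube κ θ, R ≤ ‖x‖ → g₁ x ≤ a * g₂ x) :
    D.PI (fun x => g₁ x * ‖v x‖ ^ 2) ≤ a * D.PI fun x => g₂ x * ‖v x‖ ^ 2 := by
  unfold PI
  rw [← integral_const_mul]
  refine integral_mono_of_nonneg (Eventually.of_forall fun x => ?_)
    ((D.bm_integrable C hθ hR hu hv hs hg).const_mul a) (Eventually.of_forall fun x => ?_)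
  · by_cases hw : D.wtX x = 0
    · simp [hw]
    by_cases hvx : v x = 0
    · simp [hvx]
    obtain ⟨h1, h2⟩ := D.bm_loc_mem C hu (D.bm_Phi_le hw) (hs x hvx)
    exact mul_nonneg (D.bm_wtX_nonneg x) (mul_nonneg (h0 x h1 h2) (by positivity))
  · by_cases hw : D.wtX x = 0
    · simp [hw]
    by_cases hvx : v x = 0
    · simp [hvx]
    obtain ⟨h1, h2⟩ := D.bm_loc_mem C hu (D.bm_Phi_le hw) (hs x hvx)
    have h3 := h12 x h1 h2
    have h4 := D.bm_wtX_nonneg x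
    calc D.wtX x * (g₁ x * ‖v x‖ ^ 2) ≤ D.wtX x * (a * g₂ x * ‖v x‖ ^ 2) := by gcongr
      _ = a * (D.wtX x * (g₂ x * ‖v x‖ ^ 2)) := by ring

theorem bm_continuous_Qe (ε : ℝ) {u : X E → F} (hu : Core u) : Continuous (Qe 𝔤 C σ ε u) :=
  (Core.dirac C _ (contDiff_wd 𝔤 σ ε contDiff_const) hu).1.continuous

theorem bm_supp_Qe (ε : ℝ) (u : X E → F) (x : X E) (hx : Qe 𝔤 C σ ε u x ≠ 0) :
    x ∈ tsupport u :=
  tsupport_dirac_subset C _ _ u (subset_tsupport _ hx)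

end Levi

end Crest.Agent.R330

end
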