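import Crest.Agent.R330.BM.A

/-! # Row 330, BM/B: the smooth admissible weight squeezed between two `WL`'s -/

set_option autoImplicit false
set_option linter.unusedSectionVars false

noncomputable section

open MeasureTheory Filter Topology
open scoped InnerProductSpace ContDiff Matrix
open Crest.MathPhysics.MatrixQM (GammaNine)

namespace Crest.Agent.R330

variable {E Z L H F : Type}
  [NormedAddCommGroup E] [InnerProductSpace ℝ E] [FiniteDimensional ℝ E]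
  [NormedAddCommGroup Z] [InnerProductSpace ℝ Z] [FiniteDimensional ℝ Z]
  [NormedAddCommGroup L] [InnerProductSpace ℝ L] [FiniteDimensional ℝ L]
  [NormedAddCommGroup H] [InnerProductSpace ℝ H] [FiniteDimensional ℝ H]
  [NormedAddCommGroup F] [InnerProductSpace ℂ F] [FiniteDimensional ℂ F]
  [MeasurableSpace E] [BorelSpace E] [MeasurableSpace Z] [BorelSpace Z]
  [MeasurableSpace L] [BorelSpace L] [MeasurableSpace H] [BorelSpace H]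
  {P : Type} [Fintype P] {𝔤 : Lie E} (D : Levi 𝔤 Z L H P) (C : Cl (Th E) F) (σ : Spn)

/-- The smoothed tail weight. -/
def bmT (lm : ℝ) (q : X Z × X L) : ℝ := 4 * ‖q.2‖ ^ 2 / (‖q.2‖ ^ 2 + lm ^ 2 * ‖q.1‖ ^ 2) ^ 2

theorem bmT_nonneg (lm : ℝ) (q : X Z × X L) : 0 ≤ bmT lm q := by
  unfold bmT; positivity

theorem bmT_contDiffOn {lm : ℝ} (hlm : 0 < lm) :
    ContDiffOn ℝ ∞ (bmT lm : X Z × X L → ℝ) {q | q ≠ 0} := by
  have h1 : ContDiff ℝ ∞ fun q : X Z × X L => ‖q.1‖ ^ 2 := (contDiff_norm_sq ℝ).comp contDiff_fst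
  have h2 : ContDiff ℝ ∞ fun q : X Z × X L => ‖q.2‖ ^ 2 := (contDiff_norm_sq ℝ).comp contDiff_snd
  refine ContDiffOn.div (contDiff_const.mul h2).contDiffOn
    ((h2.add (contDiff_const.mul h1)).pow 2).contDiffOn fun q hq => ?_
  have : 0 < ‖q.2‖ ^ 2 + lm ^ 2 * ‖q.1‖ ^ 2 := by
    by_cases h : q.1 = 0
    · have h' : q.2 ≠ 0 := fun h' => hq (Prod.ext h h')
      have := norm_pos_iff.mpr h'
      positivity
    · have := norm_pos_iff.mpr h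
      positivity
  positivity

theorem bmT_homog (lm r : ℝ) (hr : 0 < r) (q : X Z × X L) : bmT lm (r • q) = bmT lm q / r ^ 2 := by
  unfold bmT
  simp only [Prod.smul_fst, Prod.smul_snd, norm_smul, Real.norm_eq_abs, abs_of_pos hr]
  have : (r * ‖q.2‖) ^ 2 + lm ^ 2 * (r * ‖q.1‖) ^ 2 = r ^ 2 * (‖q.2‖ ^ 2 + lm ^ 2 * ‖q.1‖ ^ 2) := by
    ring
  rw [this]
  by_cases h : ‖q.2‖ ^ 2 + lm ^ 2 * ‖q.1‖ ^ 2 = 0
  · simp [h]
  · field_simp

theorem bmT_ge {lm : ℝ} (hlm : 0 < lm) {z : X Z} {l : X L} (hz : z ≠ 0) :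
    (if lm * ‖z‖ ≤ ‖l‖ then 1 / ‖l‖ ^ 2 else 0) ≤ bmT lm (z, l) := by
  split_ifs with h
  · have hz' := norm_pos_iff.mpr hz
    have hl : 0 < ‖l‖ := lt_of_lt_of_le (by positivity) h
    unfold bmT
    simp only
    rw [div_le_div_iff₀ (by positivity) (by positivity)]
    have h2 : lm ^ 2 * ‖z‖ ^ 2 ≤ ‖l‖ ^ 2 := by
      rw [← mul_pow]; gcongr
    have h3 : 0 ≤ lm ^ 2 * ‖z‖ ^ 2 := by positivity
    nlinarith
  · exact bmT_nonneg _ _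

theorem bmT_le_inv {lm : ℝ} {z : X Z} {l : X L} (hl : l ≠ 0) :
    bmT lm (z, l) ≤ 4 * (1 / ‖l‖ ^ 2) := by
  have hl' := norm_pos_iff.mpr hl
  unfold bmT
  simp only
  have h3 : 0 ≤ lm ^ 2 * ‖z‖ ^ 2 := by positivity
  rw [mul_one_div, div_le_div_iff₀ (by positivity) (by positivity)]
  have h4 : 0 < ‖l‖ ^ 2 := by positivity
  nlinarith

theorem bmT_le_small {lm lm' : ℝ} (hlm : 0 < lm) {z : X Z} {l : X L} (hz : z ≠ 0)
    (h : ‖l‖ ≤ lm' * ‖z‖) : bmT lm (z, l) ≤ 4 * lm' ^ 2 / lm ^ 4 / ‖z‖ ^ 2 := by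
  have hz' := norm_pos_iff.mpr hz
  unfold bmT
  simp only
  have h2 : ‖l‖ ^ 2 ≤ (lm' * ‖z‖) ^ 2 := by gcongr
  calc 4 * ‖l‖ ^ 2 / (‖l‖ ^ 2 + lm ^ 2 * ‖z‖ ^ 2) ^ 2
      ≤ 4 * (lm' * ‖z‖) ^ 2 / (lm ^ 2 * ‖z‖ ^ 2) ^ 2 := by
        gcongr
        nlinarith [sq_nonneg ‖l‖]
    _ = 4 * lm' ^ 2 / lm ^ 4 / ‖z‖ ^ 2 := by field_simp

theorem bmT_le_const {lm : ℝ} (hlm : 0 < lm) {z : X Z} {l : X L} (hz : 1 ≤ ‖z‖) :
    bmT lm (z, l) ≤ 4 / lm ^ 2 := by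
  unfold bmT
  simp only
  have h1 : 1 ≤ ‖z‖ ^ 2 := one_le_pow₀ hz
  have h2 : lm ^ 2 ≤ lm ^ 2 * ‖z‖ ^ 2 := le_mul_of_one_le_right (by positivity) h1
  have h3 : 0 < lm ^ 2 := by positivity
  have h4 : 0 ≤ ‖l‖ ^ 2 := by positivity
  rw [div_le_div_iff₀ (by positivity) h3]
  nlinarith

namespace Levi

/-- `M_p²` as a polynomial. -/
def bmQ (p : P) (z : X Z) : ℝ := ∑ i, D.α p (z i) ^ 2

theorem bmQ_nonneg (p : P) (z : X Z) : 0 ≤ D.bmQ p z := by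
  unfold bmQ; positivity

theorem bmQ_eq (p : P) (z : X Z) : D.bmQ p z = D.M p z ^ 2 := by
  exact (Real.sq_sqrt (D.bmQ_nonneg p z)).symm

theorem bmQ_contDiff (p : P) : ContDiff ℝ ∞ (D.bmQ p) := by
  unfold bmQ
  refine ContDiff.sum fun i _ => ContDiff.pow ?_ 2
  exact (LinearMap.toContinuousLinearMap (D.α p)).contDiff.comp
    (PiLp.proj 2 (fun _ : Fin 9 => Z) i : X Z →L[ℝ] Z).contDiff

theorem bmQ_smul (p : P) (r : ℝ) (z : X Z) : D.bmQ p (r • z) = r ^ 2 * D.bmQ p z := by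
  unfold bmQ
  simp only [PiLp.smul_apply, map_smul, smul_eq_mul, mul_pow, Finset.mul_sum]

/-- The central part of the weight. -/
def bmG (κ β : ℝ) (z : X Z) : ℝ :=
  23 / 20 / ‖z‖ ^ 2 + β * ∑ p, 2 / (D.bmQ p z + ‖z‖ ^ 2 / κ ^ 2)

theorem bmG_contDiffOn {κ : ℝ} (hκ : 1 ≤ κ) (β : ℝ) :
    ContDiffOn ℝ ∞ (D.bmG κ β) {z | z ≠ 0} := by
  have h1 : ContDiff ℝ ∞ fun z : X Z => ‖z‖ ^ 2 := contDiff_norm_sq ℝ
  refine ContDiffOn.add (ContDiffOn.div contDiffOn_const h1.contDiffOn fun z hz => ?_)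
    (contDiffOn_const.mul (ContDiffOn.sum fun p _ => ContDiffOn.div contDiffOn_const
      ((D.bmQ_contDiff p).add (h1.div_const _)).contDiffOn fun z hz => ?_))
  · have := norm_pos_iff.mpr hz
    positivity
  · have := norm_pos_iff.mpr hz
    have := D.bmQ_nonneg p z
    positivity

theorem bmG_homog (κ β r : ℝ) (hr : 0 < r) (z : X Z) : D.bmG κ β (r • z) = D.bmG κ β z / r ^ 2 := by
  unfold bmG
  simp only [bmQ_smul, norm_smul, Real.norm_eq_abs, abs_of_pos hr]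
  rw [add_div, mul_div_assoc, Finset.sum_div]
  congr 1
  · rw [mul_pow, div_div, div_div, div_div]; congr 1; ring
  · congr 1
    refine Finset.sum_congr rfl fun p _ => ?_
    rw [div_div]; congr 1; ring

theorem bmG_ge (κ : ℝ) {β : ℝ} (hβ : 0 ≤ β) (z : X Z) : 23 / 20 / ‖z‖ ^ 2 ≤ D.bmG κ β z := by
  unfold bmG
  have : 0 ≤ ∑ p, 2 / (D.bmQ p z + ‖z‖ ^ 2 / κ ^ 2) :=
    Finset.sum_nonneg fun p _ => by have := D.bmQ_nonneg p z; positivity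
  nlinarith [mul_nonneg hβ this]

/-- The smooth weight. -/
def bmW (κ c β lm ε : ℝ) (q : X Z × X L) : ℝ := D.bmG κ β q.1 + c * ε + β * bmT lm q

theorem bmW_ge (κ c : ℝ) {β : ℝ} (hβ : 0 ≤ β) (lm ε : ℝ) (q : X Z × X L) :
    23 / 20 / ‖q.1‖ ^ 2 + c * ε ≤ D.bmW κ c β lm ε q := by
  unfold bmW
  have := D.bmG_ge κ hβ q.1
  nlinarith [mul_nonneg hβ (bmT_nonneg lm q)]

theorem bmW_adm {κ c β lm : ℝ} (hκ : 1 ≤ κ) (hc : 0 ≤ c) (hβ : 0 ≤ β) (hlm : 0 < lm) :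
    ∃ Ω : ℝ, 0 ≤ Ω ∧ ∀ ε, 0 ≤ ε → Adm Ω (D.bmW κ c β lm ε) := by
  obtain ⟨A₁, hA₁, h₁⟩ := bm_fderiv_bound_of_homog (D.bmG_contDiffOn hκ β) (D.bmG_homog κ β)
  obtain ⟨A₂, hA₂, h₂⟩ := bm_fderiv_bound_of_homog (bmT_contDiffOn (Z := Z) (L := L) hlm)
    (bmT_homog lm)
  have hsub : {q : X Z × X L | q.1 ≠ 0} ⊆ {q | q ≠ 0} := fun q hq h0 => hq (by rw [h0]; rfl)
  have hU : IsOpen {q : X Z × X L | q.1 ≠ 0} := isOpen_ne_fun continuous_fst continuous_const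
  have hG : ContDiffOn ℝ ∞ (fun q : X Z × X L => D.bmG κ β q.1) {q | q.1 ≠ 0} :=
    (D.bmG_contDiffOn hκ β).comp contDiff_fst.contDiffOn fun q hq => hq
  have hT : ContDiffOn ℝ ∞ (bmT lm : X Z × X L → ℝ) {q | q.1 ≠ 0} := (bmT_contDiffOn hlm).mono hsub
  refine ⟨A₁ + β * A₂, by positivity, fun ε hε => ⟨?_, fun q hq => ?_⟩⟩
  · exact (hG.add contDiffOn_const).add (contDiffOn_const.mul hT)
  have hz := norm_pos_iff.mpr hq
  have hge := D.bmW_ge κ c hβ lm ε q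
  have hcε : 0 ≤ c * ε := mul_nonneg hc hε
  have hge' : 1 / ‖q.1‖ ^ 2 ≤ D.bmW κ c β lm ε q := by
    have : 1 / ‖q.1‖ ^ 2 ≤ 23 / 20 / ‖q.1‖ ^ 2 := by gcongr; norm_num
    linarith
  refine ⟨lt_of_lt_of_le (by positivity) hge', ?_⟩
  have hdG : DifferentiableAt ℝ (D.bmG κ β) q.1 :=
    ((D.bmG_contDiffOn hκ β).contDiffAt (isOpen_ne.mem_nhds hq)).differentiableAt (by simp)
  have hdT : DifferentiableAt ℝ (bmT lm : X Z × X L → ℝ) q :=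
    (hT.contDiffAt (hU.mem_nhds hq)).differentiableAt (by simp)
  have hd : HasFDerivAt (D.bmW κ c β lm ε)
      ((fderiv ℝ (D.bmG κ β) q.1).comp (ContinuousLinearMap.fst ℝ (X Z) (X L)) +
        β • fderiv ℝ (bmT lm : X Z × X L → ℝ) q) q :=
    ((hdG.hasFDerivAt.comp q hasFDerivAt_fst).add_const (c * ε)).add (hdT.hasFDerivAt.const_mul β)
  rw [hd.fderiv]
  have e1 : ‖(fderiv ℝ (D.bmG κ β) q.1).comp (ContinuousLinearMap.fst ℝ (X Z) (X L))‖ ≤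
      A₁ / ‖q.1‖ ^ 3 := by
    refine (ContinuousLinearMap.opNorm_comp_le _ _).trans ?_
    refine le_trans (mul_le_of_le_one_right (norm_nonneg _) ?_) (h₁ q.1 hq)
    exact ContinuousLinearMap.norm_fst_le ..
  have e2 : ‖β • fderiv ℝ (bmT lm : X Z × X L → ℝ) q‖ ≤ β * (A₂ / ‖q.1‖ ^ 3) := by
    refine (ContinuousLinearMap.opNorm_smul_le _ _).trans ?_
    rw [Real.norm_eq_abs, abs_of_nonneg hβ]
    refine mul_le_mul_of_nonneg_left ((h₂ q (hsub hq)).trans ?_) hβ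
    have := norm_fst_le q
    gcongr
  calc _ ≤ A₁ / ‖q.1‖ ^ 3 + β * (A₂ / ‖q.1‖ ^ 3) := 
        (ContinuousLinearMap.opNorm_add_le _ _).trans (add_le_add e1 e2)
    _ = (A₁ + β * A₂) * (1 / ‖q.1‖ ^ 2) / ‖q.1‖ := by field_simp
    _ ≤ (A₁ + β * A₂) * D.bmW κ c β lm ε q / ‖q.1‖ := by gcongr

theorem bm_M_pos {κ : ℝ} {z : X Z} (hz : z ≠ 0) {p : P} (h : ‖z‖ ≤ κ * D.M p z) (hκ : 1 ≤ κ) :
    0 < D.M p z := by
  have hz' := norm_pos_iff.mpr hz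
  by_contra h0
  have : κ * D.M p z ≤ 0 := mul_nonpos_of_nonneg_of_nonpos (by linarith) (not_lt.mp h0)
  linarith

theorem WL_le_bmW {κ c β lm ε : ℝ} (hκ : 1 ≤ κ) (hβ : 0 ≤ β) (hlm : 0 < lm) {z : X Z} {l : X L}
    (hz : z ≠ 0) (hM : ∀ p, ‖z‖ ≤ κ * D.M p z) :
    D.WL (23 / 20) c β lm ε z l ≤ D.bmW κ c β lm ε (z, l) := by
  unfold WL bmW bmG
  simp only
  have h1 := bmT_ge (l := l) hlm hz
  have hz' := norm_pos_iff.mpr hz
  have h2 : ∑ p, 1 / D.M p z ^ 2 ≤ ∑ p, 2 / (D.bmQ p z + ‖z‖ ^ 2 / κ ^ 2) := by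
    refine Finset.sum_le_sum fun p _ => ?_
    have hp := D.bm_M_pos hz (hM p) hκ
    rw [bmQ_eq, div_le_div_iff₀ (by positivity) (by positivity)]
    have : ‖z‖ ^ 2 / κ ^ 2 ≤ D.M p z ^ 2 := by
      rw [div_le_iff₀ (by positivity), ← mul_pow]
      have := hM p
      gcongr
      linarith
    linarith
  nlinarith [mul_le_mul_of_nonneg_left h1 hβ, mul_le_mul_of_nonneg_left h2 hβ]

theorem bmW_le_WL {κ c β lm lm' ε : ℝ} (hκ : 1 ≤ κ) (hβ : 0 ≤ β) (hlm : 0 < lm) (hlm' : 0 < lm')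
    (hs : β * lm' ^ 2 / lm ^ 4 ≤ 1 / 20) {z : X Z} {l : X L}
    (hz : z ≠ 0) (hM : ∀ p, ‖z‖ ≤ κ * D.M p z) :
    D.bmW κ c (β / 4) lm ε (z, l) ≤ D.WL (6 / 5) c β lm' ε z l := by
  unfold WL bmW bmG
  simp only
  have hz' := norm_pos_iff.mpr hz
  have h2 : ∑ p, 2 / (D.bmQ p z + ‖z‖ ^ 2 / κ ^ 2) ≤ 4 * ∑ p, 1 / D.M p z ^ 2 := by
    rw [Finset.mul_sum]
    refine Finset.sum_le_sum fun p _ => ?_
    have hp := D.bm_M_pos hz (hM p) hκ
    rw [bmQ_eq, mul_one_div, div_le_div_iff₀ (by positivity) (by positivity)]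
    have : 0 ≤ ‖z‖ ^ 2 / κ ^ 2 := by positivity
    nlinarith [sq_nonneg (D.M p z)]
  have h3 : β / 4 * bmT lm (z, l) ≤
      1 / 20 / ‖z‖ ^ 2 + β * if lm' * ‖z‖ ≤ ‖l‖ then 1 / ‖l‖ ^ 2 else 0 := by
    split_ifs with h
    · have hl : l ≠ 0 := norm_pos_iff.mp (lt_of_lt_of_le (by positivity) h)
      have h4 := mul_le_mul_of_nonneg_left (bmT_le_inv (lm := lm) (z := z) hl)
        (by positivity : 0 ≤ β / 4)
      have : 0 ≤ 1 / 20 / ‖z‖ ^ 2 := by positivity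
      linarith
    · have h4 := mul_le_mul_of_nonneg_left (bmT_le_small hlm hz (le_of_lt (not_le.mp h)))
        (by positivity : 0 ≤ β / 4)
      have h5 : β / 4 * (4 * lm' ^ 2 / lm ^ 4 / ‖z‖ ^ 2) = β * lm' ^ 2 / lm ^ 4 / ‖z‖ ^ 2 := by ring
      have h6 : β * lm' ^ 2 / lm ^ 4 / ‖z‖ ^ 2 ≤ 1 / 20 / ‖z‖ ^ 2 := by gcongr
      linarith
  have h7 : (6 / 5 : ℝ) / ‖z‖ ^ 2 = 23 / 20 / ‖z‖ ^ 2 + 1 / 20 / ‖z‖ ^ 2 := by ring
  have h8 := mul_le_mul_of_nonneg_left h2 (by positivity : 0 ≤ β / 4)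
  nlinarith

theorem bmW_le_const {κ c β lm : ℝ} (hκ : 1 ≤ κ) (hc : 0 ≤ c) (hβ : 0 ≤ β) (hlm : 0 < lm) :
    ∃ A : ℝ, 0 < A ∧ ∀ ε, ε ≤ 1 → ∀ (z : X Z) (l : X L), 1 ≤ ‖z‖ → D.bmW κ c β lm ε (z, l) ≤ A := by
  refine ⟨23 / 20 + β * (Fintype.card P * (2 * κ ^ 2)) + c + β * (4 / lm ^ 2), by positivity,
    fun ε hε z l hz => ?_⟩
  unfold bmW bmG
  simp only
  have h1 : 1 ≤ ‖z‖ ^ 2 := one_le_pow₀ hz
  have h2 : (23 / 20 : ℝ) / ‖z‖ ^ 2 ≤ 23 / 20 := div_le_self (by norm_num) h1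
  have h3 : ∑ p, 2 / (D.bmQ p z + ‖z‖ ^ 2 / κ ^ 2) ≤ Fintype.card P * (2 * κ ^ 2) := by
    have : ∀ p ∈ (Finset.univ : Finset P), 2 / (D.bmQ p z + ‖z‖ ^ 2 / κ ^ 2) ≤ 2 * κ ^ 2 := by
      intro p _
      have hq := D.bmQ_nonneg p z
      rw [div_le_iff₀ (by positivity)]
      have : 2 * κ ^ 2 * (‖z‖ ^ 2 / κ ^ 2) = 2 * ‖z‖ ^ 2 := by field_simp
      nlinarith [mul_nonneg (by positivity : (0:ℝ) ≤ 2 * κ ^ 2) hq]
    simpa using Finset.sum_le_card_nsmul _ _ _ this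
  have h4 := bmT_le_const (l := l) hlm hz
  have h5 : c * ε ≤ c := mul_le_of_le_one_right hc hε
  nlinarith [mul_le_mul_of_nonneg_left h3 hβ, mul_le_mul_of_nonneg_left h4 hβ]

theorem WL_nonneg {a c β lm ε : ℝ} (ha : 0 ≤ a) (hc : 0 ≤ c) (hβ : 0 ≤ β) (hε : 0 ≤ ε) (z : X Z)
    (l : X L) : 0 ≤ D.WL a c β lm ε z l := by
  unfold WL
  have : 0 ≤ (if lm * ‖z‖ ≤ ‖l‖ then 1 / ‖l‖ ^ 2 else 0 : ℝ) := by split_ifs <;> positivity
  positivity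

/-- `WL |f|²` is integrable for an effective wave function. -/
theorem integrable_WL {G : GammaNine} {𝒱 : Wts} {κ θ R a c β lm ε : ℝ} (hκ : 1 ≤ κ) (hR : 0 < R)
    (ha : 0 ≤ a) (hc : 0 ≤ c) (hβ : 0 ≤ β) (hε : 0 ≤ ε) (hlm : 0 < lm) {f : X Z × X L → F}
    (hf : D.Eff C G 𝒱 κ θ R f) :
    Integrable fun q : X Z × X L => D.WL a c β lm ε q.1 q.2 * ‖f q‖ ^ 2 := by
  have hfc : Continuous f := hf.1.1.continuous
  have hI : Integrable fun q : X Z × X L => ‖f q‖ ^ 2 :=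
    Continuous.integrable_of_hasCompactSupport (hfc.norm.pow 2)
      (HasCompactSupport.intro hf.1.2.isCompact fun q hq => by
        rw [image_eq_zero_of_notMem_tsupport hq]; simp)
  have hm : Measurable fun q : X Z × X L => D.WL a c β lm ε q.1 q.2 := by
    unfold WL
    have hM : ∀ p, Measurable fun q : X Z × X L => D.M p q.1 := fun p =>
      ((D.continuous_M p).comp continuous_fst).measurable
    have h1 : Measurable fun q : X Z × X L => ‖q.1‖ := continuous_fst.norm.measurable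
    have h2 : Measurable fun q : X Z × X L => ‖q.2‖ := continuous_snd.norm.measurable
    refine ((measurable_const.div (h1.pow_const 2)).add measurable_const).add
      (measurable_const.mul (Measurable.add (Finset.measurable_sum _ fun p _ =>
        measurable_const.div ((hM p).pow_const 2)) (Measurable.ite ?_
          (measurable_const.div (h2.pow_const 2)) measurable_const)))
    exact measurableSet_le (measurable_const.mul h1) h2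
  set A : ℝ := a / R ^ 2 + c * ε + β * (Fintype.card P * (κ ^ 2 / R ^ 2) + 1 / (lm * R) ^ 2)
    with hA
  refine Integrable.mono' (hI.const_mul A)
    (hm.aestronglyMeasurable.mul hI.aestronglyMeasurable) (Eventually.of_forall fun q => ?_)
  rw [Real.norm_eq_abs, abs_of_nonneg (mul_nonneg (D.WL_nonneg ha hc hβ hε _ _) (by positivity))]
  by_cases hq : f q = 0
  · simp [hq]
  obtain ⟨h1, h2, -⟩ := hf.2.2.2.2 q (subset_tsupport _ hq)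
  refine mul_le_mul_of_nonneg_right ?_ (by positivity)
  have hz : q.1 ≠ 0 := norm_pos_iff.mp (lt_of_lt_of_le hR h1)
  unfold WL
  have e1 : a / ‖q.1‖ ^ 2 ≤ a / R ^ 2 := by gcongr
  have e2 : ∑ p, 1 / D.M p q.1 ^ 2 ≤ Fintype.card P * (κ ^ 2 / R ^ 2) := by
    have : ∀ p ∈ (Finset.univ : Finset P), 1 / D.M p q.1 ^ 2 ≤ κ ^ 2 / R ^ 2 := by
      intro p _
      have hp := D.bm_M_pos hz (h2 p) hκ
      rw [div_le_div_iff₀ (by positivity) (by positivity), one_mul, ← mul_pow]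
      have := h1.trans (h2 p)
      gcongr
    simpa using Finset.sum_le_card_nsmul _ _ _ this
  have e3 : (if lm * ‖q.1‖ ≤ ‖q.2‖ then 1 / ‖q.2‖ ^ 2 else 0 : ℝ) ≤ 1 / (lm * R) ^ 2 := by
    split_ifs with h
    · have : lm * R ≤ ‖q.2‖ := le_trans (by gcongr) h
      gcongr
    · positivity
  have e4 := mul_le_mul_of_nonneg_left (add_le_add e2 e3) hβ
  rw [hA]
  linarith

end Levi

end Crest.Agent.R330

end
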